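import Crest.Agent.Helper67.SW.TwoPairFibre
import Crest.Agent.Helper67.SW.TwoPairSpec
import Crest.Agent.Helper10.S0453.DP

/-!
# S0453, WP-E1 (track 1): localisation of the two-pair inequality `TPLGraph` to key-fibres

`tplGraph_of_spec` derives helper10's `TPLGraph d f` from helper67's `TwoPairSpec` (the two-pair
lemma of PROOF.md §5 on one coordinatised fibre), through helper67's fibre coordinates
(`Quad.key`, `Quad.blk`, `Quad.partA`, `Quad.partC`): every term of `Sw - Bad - Bad' ≤ 2 IPair`
is a sum over the realizations of a quantity that only involves the key-fibre of the summand.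
-/

set_option autoImplicit false

namespace Crest.Agent.Helper18.TPL

open Finset Crest.SwitchChain Crest.Agent.Helper65.Switch Crest.Agent.Helper67.SW
open Crest.Agent.Helper10.S0453

variable {n : ℕ}

/-- The quadruple of an ordered tuple of four distinct vertices. -/
def quadOf {a b c e : Fin n} (h : D4 a b c e) : Quad n :=
  ⟨a, b, c, e, h.1, h.2.1, h.2.2.1, h.2.2.2.1, h.2.2.2.2.1, h.2.2.2.2.2⟩

section bridge

variable {a b c e : Fin n} (h : D4 a b c e)

theorem swAt_iff (G : Finset (Edge n)) : SwAt G a b c e ↔ (quadOf h).blk G = Blk.cp := by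
  unfold SwAt
  rw [adj_iff h.2.1, adj_iff h.2.2.2.2.1, adj_iff h.2.2.1, adj_iff h.2.2.2.1]
  simp only [Quad.blk, Blk.cp, Prod.mk.injEq, decide_eq_true_eq, decide_eq_false_iff_not]
  constructor
  · rintro ⟨h1, h2, h3, h4⟩; exact ⟨h1, h3, h4, h2⟩
  · rintro ⟨h1, h3, h4, h2⟩; exact ⟨h1, h2, h3, h4⟩

theorem swAt_iff' (G : Finset (Edge n)) : SwAt G a b e c ↔ (quadOf h).blk G = Blk.cm := by
  unfold SwAt
  rw [adj_iff h.2.2.1, adj_iff h.2.2.2.1, adj_iff h.2.1, adj_iff h.2.2.2.2.1]
  simp only [Quad.blk, Blk.cm, Prod.mk.injEq, decide_eq_true_eq, decide_eq_false_iff_not]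
  constructor
  · rintro ⟨h1, h2, h3, h4⟩; exact ⟨h3, h1, h2, h4⟩
  · rintro ⟨h3, h1, h2, h4⟩; exact ⟨h1, h2, h3, h4⟩

theorem split_iff (G : Finset (Edge n)) :
    Split G a b c e ↔ ((quadOf h).blk G = Blk.cp ∨ (quadOf h).blk G = Blk.cm) := by
  unfold Split
  rw [swAt_iff h, swAt_iff' h]

theorem split_swap_iff (G : Finset (Edge n)) : Split G c e a b ↔ Split G a b c e := by
  unfold Split SwAt
  rw [adj_comm (x := c) (y := a), adj_comm (x := e) (y := b), adj_comm (x := c) (y := b),
    adj_comm (x := e) (y := a)]
  tauto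

end bridge

section flipbridge

variable {a b c e : Fin n} (h : D4 a b c e)

theorem mem_blk10 (x : Edge n) : x ∈ Crest.Agent.Helper10.S0453.blk a b c e ↔
    (x = (quadOf h).eau ∨ x = (quadOf h).ebv ∨ x = (quadOf h).eav ∨ x = (quadOf h).ebu) := by
  unfold Crest.Agent.Helper10.S0453.blk
  rw [Finset.mem_filter]
  simp only [Finset.mem_univ, true_and, Quad.eau, Quad.ebv, Quad.eav, Quad.ebu, quadOf, mkE,
    Subtype.ext_iff]

/-- helper10's `flip` at a `cp`-state is the graph with the same parts and block `cm`. -/
theorem flip_eq {G : Finset (Edge n)} (hG : (quadOf h).blk G = Blk.cp) :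
    flip a b c e G = (quadOf h).assemble ((quadOf h).partR G) ((quadOf h).partA G)
      ((quadOf h).partC G) Blk.cm := by
  rw [← Quad.switch_cp _ hG]
  have h1 : (quadOf h).eau ∈ G := by
    rw [← Quad.blk_fst, hG]; rfl
  have h2 : (quadOf h).eav ∉ G := by
    rw [← Quad.blk_snd, hG]; decide
  have h3 : (quadOf h).ebu ∉ G := by
    rw [← Quad.blk_trd, hG]; decide
  have h4 : (quadOf h).ebv ∈ G := by
    rw [← Quad.blk_fth, hG]; rfl
  ext x
  rw [Crest.Agent.Helper10.S0453.flip, Finset.mem_symmDiff, mem_blk10 h, Finset.mem_union, Finset.mem_sdiff,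
    Finset.mem_insert, Finset.mem_singleton, Finset.mem_insert, Finset.mem_singleton]
  constructor
  · rintro (⟨hx, hn⟩ | ⟨hx, hn⟩)
    · left; exact ⟨hx, fun hh => hn (by tauto)⟩
    · rcases hx with rfl | rfl | rfl | rfl
      · exact absurd h1 hn
      · exact absurd h4 hn
      · right; left; rfl
      · right; right; rfl
  · rintro (⟨hx, hn⟩ | hx)
    · left
      refine ⟨hx, ?_⟩
      rintro (rfl | rfl | rfl | rfl)
      · exact hn (Or.inl rfl)
      · exact hn (Or.inr rfl)
      · exact h2 hx
      · exact h3 hx
    · right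
      rcases hx with rfl | rfl
      · exact ⟨Or.inr (Or.inr (Or.inl rfl)), h2⟩
      · exact ⟨Or.inr (Or.inr (Or.inr rfl)), h3⟩

end flipbridge

/-! ### localisation -/

theorem sum_nonpos_of_fibres {α κ : Type*} [DecidableEq κ] (Ω : Finset α) (key : α → κ)
    (T : α → ℝ) (hT : ∀ G₀ ∈ Ω, ∑ G ∈ Ω.filter (fun G => key G = key G₀), T G ≤ 0) :
    ∑ G ∈ Ω, T G ≤ 0 := by
  classical
  rw [← Finset.sum_fiberwise_of_maps_to (g := key) (t := Ω.image key)
    (fun x hx => Finset.mem_image_of_mem _ hx)]
  refine Finset.sum_nonpos fun k hk => ?_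
  obtain ⟨G₀, hG₀, rfl⟩ := Finset.mem_image.1 hk
  exact hT G₀ hG₀

section classes

variable {a b c e : Fin n} (h : D4 a b c e) {d : Fin n → ℕ}

open Classical in
/-- the class of `{a, b}` inside the key-fibre. -/
theorem cls_P_eq {G₀ G : Finset (Edge n)} (hG : G ∈ realizations d)
    (hk : (quadOf h).key G = (quadOf h).key G₀) :
    cls d {a, b} G = ((realizations d).filter
        (fun G' => (quadOf h).key G' = (quadOf h).key G₀)).filter
      (fun G' => (quadOf h).partC G' = (quadOf h).partC G) := by
  ext G'
  rw [mem_cls, Finset.mem_filter, Finset.mem_filter]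
  constructor
  · rintro ⟨hG', hoff⟩
    have := ((quadOf h).offP_eq_iff hG hG').1 hoff
    exact ⟨⟨hG', this.1.trans hk⟩, this.2⟩
  · rintro ⟨⟨hG', hk'⟩, hC⟩
    exact ⟨hG', ((quadOf h).offP_eq_iff hG hG').2 ⟨hk'.trans hk.symm, hC⟩⟩

open Classical in
/-- the class of `{c, e}` inside the key-fibre. -/
theorem cls_Q_eq {G₀ G : Finset (Edge n)} (hG : G ∈ realizations d)
    (hk : (quadOf h).key G = (quadOf h).key G₀) :
    cls d {c, e} G = ((realizations d).filter
        (fun G' => (quadOf h).key G' = (quadOf h).key G₀)).filter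
      (fun G' => (quadOf h).partA G' = (quadOf h).partA G) := by
  ext G'
  rw [mem_cls, Finset.mem_filter, Finset.mem_filter]
  constructor
  · rintro ⟨hG', hoff⟩
    have := ((quadOf h).offQ_eq_iff hG hG').1 hoff
    exact ⟨⟨hG', this.1.trans hk⟩, this.2⟩
  · rintro ⟨⟨hG', hk'⟩, hA⟩
    exact ⟨hG', ((quadOf h).offQ_eq_iff hG hG').2 ⟨hk'.trans hk.symm, hA⟩⟩

end classes

section main

variable {a b c e : Fin n}

theorem isCtr_iff (M : Blk) : IsCtr M ↔ (M = Blk.cp ∨ M = Blk.cm) := Iff.rfl

open Classical in
/-- **Localisation**: the graph two-pair inequality for the tuple `(a, b, c, e)` from the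
two-pair inequality on coordinatised fibres (`TwoPairSpec`), through helper67's fibre
coordinates. -/
theorem tpl_of_spec (hE : TwoPairSpec) (d : Fin n → ℕ) (f : Finset (Edge n) → ℝ)
    (h : D4 a b c e) :
    Sw d a b c e f - Bad d a b c e f - Bad d c e a b f ≤ 2 * IPair d f {a, b} {c, e} := by
  set q := quadOf h with hq
  have key : ∑ G ∈ realizations d,
      ((if SwAt G a b c e then (f G - f (Crest.Agent.Helper10.S0453.flip a b c e G)) ^ 2 else 0)
        - (if Split G a b c e then
            ((∑ G' ∈ (cls d {a, b} G).filter (fun G' => Split G' a b c e), f G') /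
              (((cls d {a, b} G).filter (fun G' => Split G' a b c e)).card : ℝ)
            - Qavg d {a, b} f G) ^ 2 else 0)
        - (if Split G c e a b then
            ((∑ G' ∈ (cls d {c, e} G).filter (fun G' => Split G' c e a b), f G') /
              (((cls d {c, e} G).filter (fun G' => Split G' c e a b)).card : ℝ)
            - Qavg d {c, e} f G) ^ 2 else 0)
        - 2 * (Rop d {a, b} f G * Rop d {c, e} f G)) ≤ 0 := by
    refine sum_nonpos_of_fibres (realizations d) q.key _ fun G₀ hG₀ => ?_
    generalize hΦ : (realizations d).filter (fun G => q.key G = q.key G₀) = Φ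
    have hmem : ∀ x, x ∈ Φ ↔ x ∈ realizations d ∧ q.key x = q.key G₀ := by
      intro x; rw [← hΦ, Finset.mem_filter]
    have hloc := hE (Finset (Edge n)) (Finset (Edge n)) (Finset (Edge n)) Φ q.blk q.partA q.partC
      (q.blk G₀).tot (q.As d G₀) (q.Cs d G₀)
      (fun G => q.assemble (q.partR G) (q.partA G) (q.partC G) Blk.cm) f ?_ ?_ ?_ ?_ ?_
    · rw [Finset.sum_filter, Finset.sum_filter, Finset.sum_filter] at hloc
      have hterm : ∀ G ∈ Φ,
          ((if SwAt G a b c e then
              (f G - f (Crest.Agent.Helper10.S0453.flip a b c e G)) ^ 2 else 0)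
            - (if Split G a b c e then
                ((∑ G' ∈ (cls d {a, b} G).filter (fun G' => Split G' a b c e), f G') /
                  (((cls d {a, b} G).filter (fun G' => Split G' a b c e)).card : ℝ)
                - Qavg d {a, b} f G) ^ 2 else 0)
            - (if Split G c e a b then
                ((∑ G' ∈ (cls d {c, e} G).filter (fun G' => Split G' c e a b), f G') /
                  (((cls d {c, e} G).filter (fun G' => Split G' c e a b)).card : ℝ)
                - Qavg d {c, e} f G) ^ 2 else 0)
            - 2 * (Rop d {a, b} f G * Rop d {c, e} f G))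
          = ((if q.blk G = (true, false, false, true) then
                (f G - f (q.assemble (q.partR G) (q.partA G) (q.partC G) Blk.cm)) ^ 2 else 0)
            - (if IsCtr (q.blk G) then
                ((∑ y ∈ Φ.filter (fun y => q.partC y = q.partC G ∧ IsCtr (q.blk y)), f y) /
                    ((Φ.filter (fun y => q.partC y = q.partC G ∧ IsCtr (q.blk y))).card : ℝ)
                  - (∑ y ∈ Φ.filter (fun y => q.partC y = q.partC G), f y) /
                    ((Φ.filter (fun y => q.partC y = q.partC G)).card : ℝ)) ^ 2 else 0)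
            - (if IsCtr (q.blk G) then
                ((∑ y ∈ Φ.filter (fun y => q.partA y = q.partA G ∧ IsCtr (q.blk y)), f y) /
                    ((Φ.filter (fun y => q.partA y = q.partA G ∧ IsCtr (q.blk y))).card : ℝ)
                  - (∑ y ∈ Φ.filter (fun y => q.partA y = q.partA G), f y) /
                    ((Φ.filter (fun y => q.partA y = q.partA G)).card : ℝ)) ^ 2 else 0)
            - 2 * ((f G - (∑ y ∈ Φ.filter (fun y => q.partC y = q.partC G), f y) /
                    ((Φ.filter (fun y => q.partC y = q.partC G)).card : ℝ))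
                * (f G - (∑ y ∈ Φ.filter (fun y => q.partA y = q.partA G), f y) /
                    ((Φ.filter (fun y => q.partA y = q.partA G)).card : ℝ)))) := by
        intro G hG
        obtain ⟨hGΩ, hk⟩ := (hmem G).1 hG
        have e1 : cls d {a, b} G = Φ.filter (fun G' => q.partC G' = q.partC G) := by
          rw [← hΦ]; exact cls_P_eq h hGΩ hk
        have e2 : cls d {c, e} G = Φ.filter (fun G' => q.partA G' = q.partA G) := by
          rw [← hΦ]; exact cls_Q_eq h hGΩ hk
        have f1 : (cls d {a, b} G).filter (fun G' => Split G' a b c e)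
            = Φ.filter (fun G' => q.partC G' = q.partC G ∧ IsCtr (q.blk G')) := by
          rw [e1, Finset.filter_filter]
          exact Finset.filter_congr (fun G' _ => and_congr Iff.rfl (split_iff h G'))
        have f2 : (cls d {c, e} G).filter (fun G' => Split G' c e a b)
            = Φ.filter (fun G' => q.partA G' = q.partA G ∧ IsCtr (q.blk G')) := by
          rw [e2, Finset.filter_filter]
          exact Finset.filter_congr
            (fun G' _ => and_congr Iff.rfl ((split_swap_iff G').trans (split_iff h G')))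
        have q1 : Qavg d {a, b} f G = (∑ y ∈ Φ.filter (fun y => q.partC y = q.partC G), f y) /
            ((Φ.filter (fun y => q.partC y = q.partC G)).card : ℝ) := by
          rw [Qavg_def, e1]
        have q2 : Qavg d {c, e} f G = (∑ y ∈ Φ.filter (fun y => q.partA y = q.partA G), f y) /
            ((Φ.filter (fun y => q.partA y = q.partA G)).card : ℝ) := by
          rw [Qavg_def, e2]
        have t1 : (if SwAt G a b c e then
              (f G - f (Crest.Agent.Helper10.S0453.flip a b c e G)) ^ 2 else 0)
            = (if q.blk G = (true, false, false, true) then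
                (f G - f (q.assemble (q.partR G) (q.partA G) (q.partC G) Blk.cm)) ^ 2 else 0) := by
          by_cases hs : q.blk G = (true, false, false, true)
          · rw [if_pos ((swAt_iff h G).2 hs), if_pos hs, flip_eq h hs]
          · rw [if_neg (fun hh => hs ((swAt_iff h G).1 hh)), if_neg hs]
        have t2 : (if Split G a b c e then
                ((∑ G' ∈ (cls d {a, b} G).filter (fun G' => Split G' a b c e), f G') /
                  (((cls d {a, b} G).filter (fun G' => Split G' a b c e)).card : ℝ)
                - Qavg d {a, b} f G) ^ 2 else 0)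
            = (if IsCtr (q.blk G) then
                ((∑ y ∈ Φ.filter (fun y => q.partC y = q.partC G ∧ IsCtr (q.blk y)), f y) /
                    ((Φ.filter (fun y => q.partC y = q.partC G ∧ IsCtr (q.blk y))).card : ℝ)
                  - (∑ y ∈ Φ.filter (fun y => q.partC y = q.partC G), f y) /
                    ((Φ.filter (fun y => q.partC y = q.partC G)).card : ℝ)) ^ 2 else 0) := by
          rw [f1, q1]
          by_cases hs : IsCtr (q.blk G)
          · rw [if_pos ((split_iff h G).2 hs), if_pos hs]
          · rw [if_neg (fun hh => hs ((split_iff h G).1 hh)), if_neg hs]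
        have t3 : (if Split G c e a b then
                ((∑ G' ∈ (cls d {c, e} G).filter (fun G' => Split G' c e a b), f G') /
                  (((cls d {c, e} G).filter (fun G' => Split G' c e a b)).card : ℝ)
                - Qavg d {c, e} f G) ^ 2 else 0)
            = (if IsCtr (q.blk G) then
                ((∑ y ∈ Φ.filter (fun y => q.partA y = q.partA G ∧ IsCtr (q.blk y)), f y) /
                    ((Φ.filter (fun y => q.partA y = q.partA G ∧ IsCtr (q.blk y))).card : ℝ)
                  - (∑ y ∈ Φ.filter (fun y => q.partA y = q.partA G), f y) /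
                    ((Φ.filter (fun y => q.partA y = q.partA G)).card : ℝ)) ^ 2 else 0) := by
          rw [f2, q2]
          by_cases hs : IsCtr (q.blk G)
          · rw [if_pos ((split_swap_iff G).2 ((split_iff h G).2 hs)), if_pos hs]
          · rw [if_neg (fun hh => hs ((split_iff h G).1 ((split_swap_iff G).1 hh))), if_neg hs]
        rw [t1, t2, t3, Rop_def, Rop_def, q1, q2]
      rw [Finset.sum_congr rfl hterm]
      simp only [Finset.sum_sub_distrib, ← Finset.mul_sum]
      linarith
    · intro x hx y hy hM hA hC
      exact q.inj (by rw [((hmem x).1 hx).2, ((hmem y).1 hy).2]) hM hA hC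
    · intro m A C
      refine Iff.trans ?_ (q.image hG₀ m A C)
      constructor
      · rintro ⟨x, hx, h1, h2, h3⟩
        exact ⟨x, ((hmem x).1 hx).1, ((hmem x).1 hx).2, h1, h2, h3⟩
      · rintro ⟨x, hx, hk, h1, h2, h3⟩
        exact ⟨x, (hmem x).2 ⟨hx, hk⟩, h1, h2, h3⟩
    · intro r r' hr
      rw [Finset.disjoint_left]
      intro A h1 h2
      rw [Quad.mem_As] at h1 h2
      exact hr (by omega)
    · intro k k' hk
      rw [Finset.disjoint_left]
      intro C h1 h2
      rw [Quad.mem_Cs] at h1 h2
      exact hk (by omega)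
    · intro x hx hcp
      obtain ⟨hxΩ, hxk⟩ := (hmem x).1 hx
      have hc := q.coords_mem hxΩ hxΩ rfl
      have hcp' : q.blk x = Blk.cp := hcp
      rw [hcp'] at hc
      have hM : Blk.cm.tot = (q.blk x).tot := by rw [hcp']; rfl
      obtain ⟨s1, s2, s3, s4, s5⟩ := q.assemble_mem hxΩ (M := Blk.cm) hM hc.2.1 hc.2.2
      exact ⟨(hmem _).2 ⟨s1, s2.trans hxk⟩, s3, s4, s5⟩
  rw [Sw_def, Bad_def, Bad_def, IPair]
  rw [Finset.sum_filter, Finset.sum_filter, Finset.sum_filter]
  simp only [Finset.sum_sub_distrib, ← Finset.mul_sum] at key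
  linarith

/-- **`TPLGraph` from the two-pair inequality on coordinatised fibres.** -/
theorem tplGraph_of_spec (hE : TwoPairSpec) (d : Fin n → ℕ) (f : Finset (Edge n) → ℝ) :
    TPLGraph d f :=
  fun _ _ _ _ h => tpl_of_spec hE d f h

end main

end Crest.Agent.Helper18.TPL
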